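import Crest.Agent.R106.TR.Force
import Crest.Agent.R106.Wave.Param
import Crest.Agent.R106.U.Calc

/-! Row 106, block TR: smoothness of the sources and conservation of charge. -/

set_option autoImplicit false
set_option linter.unusedSectionVars false
set_option linter.unusedSimpArgs false
set_option linter.deprecated false

noncomputable section

namespace Crest.Agent.R106.TR

open MeasureTheory Set Crest.AnalysisR.VecCalc3 Crest.AnalysisR.PDE.RVM Crest.Agent.R106.HR
open scoped ContDiff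

section
variable {F : Type} [NormedAddCommGroup F] [NormedSpace ℝ F]

/-- `((t, x), v) ↦ (t, x, v)` -/
def asc : PX × R3 →L[ℝ] PZ := (ContinuousLinearEquiv.prodAssoc ℝ ℝ R3 R3 : (ℝ × R3) × R3 →L[ℝ] ℝ × R3 × R3)
theorem asc_apply (z : PX × R3) : asc z = (z.1.1, z.1.2, z.2) := rfl

instance finBall (R : ℝ) : IsFiniteMeasure (volume.restrict (Metric.closedBall (0 : R3) R)) :=
  isFiniteMeasure_restrict.2 (isCompact_closedBall _ _).measure_lt_top.ne

theorem int_eq {R : ℝ} {u : PZ → F} (h0 : ∀ p : PZ, R ≤ ‖p.2.2‖ → u p = 0) :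
    (fun q : PX => ∫ v, u (q.1, q.2, v)) = fun q : PX => ∫ v in Metric.closedBall (0 : R3) R, (u ∘ asc) (q, v) := by
  funext q
  refine (setIntegral_eq_integral_of_forall_compl_eq_zero fun v hv => h0 _ ?_).symm
  simpa using (not_le.1 (by simpa using hv)).le

theorem int_smooth {R : ℝ} {u : PZ → F} (hu : ContDiff ℝ ∞ u) (h0 : ∀ p : PZ, R ≤ ‖p.2.2‖ → u p = 0) :
    ContDiff ℝ ∞ fun q : PX => ∫ v, u (q.1, q.2, v) := by
  rw [int_eq h0]
  exact Wave.contDiff_int (isCompact_closedBall _ _) (ae_restrict_mem measurableSet_closedBall) (hu.comp asc.contDiff)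

theorem int_fderiv [CompleteSpace F] {R : ℝ} {u : PZ → F} (hu : ContDiff ℝ ∞ u) (h0 : ∀ p : PZ, R ≤ ‖p.2.2‖ → u p = 0) (q e : PX) :
    fderiv ℝ (fun q : PX => ∫ v, u (q.1, q.2, v)) q e =
      ∫ v in Metric.closedBall (0 : R3) R, fderiv ℝ u (q.1, q.2, v) (e.1, e.2, 0) := by
  rw [int_eq h0, Wave.fderiv_int_apply (isCompact_closedBall _ _) (ae_restrict_mem measurableSet_closedBall)
    (fun v _ => ((hu.comp asc.contDiff).of_le (by simp)).contDiffAt)]
  refine integral_congr_ae (Filter.Eventually.of_forall fun v => ?_)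
  simp only
  rw [fderiv_comp _ (hu.differentiable (by simp) _) asc.differentiableAt, asc.fderiv]
  rfl

theorem int_on {u : PZ → F} (hu : Continuous u) (R : ℝ) (q : PX) :
    Integrable (fun v => u (q.1, q.2, v)) (volume.restrict (Metric.closedBall (0 : R3) R)) :=
  ContinuousOn.integrableOn_compact (isCompact_closedBall _ _) (Continuous.continuousOn (by fun_prop))

end

theorem rho_smooth {R : ℝ} {u : PZ → ℝ} (hu : ContDiff ℝ ∞ u) (h0 : ∀ p : PZ, R ≤ ‖p.2.2‖ → u p = 0) :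
    ContDiff ℝ ∞ (rho u) := int_smooth hu h0

theorem ur_smooth {u : PZ → ℝ} (hu : ContDiff ℝ ∞ u) : ContDiff ℝ ∞ fun p : PZ => u p • relVel p.2.2 :=
  hu.smul (relVel_smooth.comp contDiff_snd.snd)

theorem cur_smooth {R : ℝ} {u : PZ → ℝ} (hu : ContDiff ℝ ∞ u) (h0 : ∀ p : PZ, R ≤ ‖p.2.2‖ → u p = 0) :
    ContDiff ℝ ∞ (cur u) :=
  int_smooth (R := R) (u := fun p : PZ => u p • relVel p.2.2) (ur_smooth hu) fun p hp => by simp [h0 p hp]

theorem frc_smooth {R : ℝ} {A : PZ → K6 →L[ℝ] R3} {K : PX → K6} (hA : Force R A) (hK : ContDiff ℝ ∞ K) :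
    ContDiff ℝ ∞ fun p : PZ => A p (K (px p)) := hA.sm.clm_apply (hK.comp px.contDiff)

theorem flx_smooth {R : ℝ} {A : PZ → K6 →L[ℝ] R3} {K : PX → K6} {f : PZ → ℝ} (hA : Force R A) (hK : ContDiff ℝ ∞ K)
    (hf : ContDiff ℝ ∞ f) : ContDiff ℝ ∞ (flx A K f) := hf.smul (frc_smooth hA hK)

theorem sum_ee (w : R3) : ∑ i, w i • ee i = w := by
  ext j; simp [ee, Fin.sum_univ_three, Pi.single_apply]; fin_cases j <;> simp

/-- transport form ⇒ divergence form -/
theorem vl_flx {R : ℝ} {A : PZ → K6 →L[ℝ] R3} {K : PX → K6} {f : PZ → ℝ} (hA : Force R A) (hK : ContDiff ℝ ∞ K)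
    (hf : ContDiff ℝ ∞ f) (p : PZ) (h : fderiv ℝ f p (1, HR.vf A K p) = 0) :
    fderiv ℝ f p (1, relVel p.2.2, 0) + ∑ i, fderiv ℝ (flx A K f) p (0, 0, ee i) i = 0 := by
  have h1 := (hf.differentiable (by simp) p).hasFDerivAt
  have h2 := (hA.sm.differentiable (by simp) p).hasFDerivAt
  have h3 := ((hK.differentiable (by simp) (px p)).hasFDerivAt).comp p px.hasFDerivAt
  have h4 : HasFDerivAt (flx A K f) _ p := h1.smul (h2.clm_apply h3)
  rw [h4.fderiv]
  have e0 : px ((0, 0, 0) : PZ) = 0 := rfl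
  have e1 : ∀ i, px ((0, 0, ee i) : PZ) = 0 := fun i => rfl
  have e2 := hA.dv p (K (px p))
  have e3 : ((1, HR.vf A K p) : PZ) = (1, relVel p.2.2, 0) + ∑ i, A p (K (px p)) i • ((0, 0, ee i) : PZ) := by
    have : ∑ i, A p (K (px p)) i • ((0, 0, ee i) : PZ) = (0, 0, ∑ i, A p (K (px p)) i • ee i) := by
      simp [Fin.sum_univ_three]
    rw [this, sum_ee]; simp [HR.vf]
  rw [e3, map_add, map_sum] at h
  simp only [map_smul, smul_eq_mul] at h
  simp only [ContinuousLinearMap.add_apply, ContinuousLinearMap.smul_apply, ContinuousLinearMap.comp_apply, e1, map_zero,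
    ContinuousLinearMap.smulRight_apply, ContinuousLinearMap.flip_apply, PiLp.add_apply, PiLp.smul_apply, smul_eq_mul,
    Function.comp, zero_add, Finset.sum_add_distrib, ← Finset.mul_sum, e2, mul_zero]
  simp only [mul_comm _ (A p (K (px p)) _)]
  exact h

/-- `∂ₜ ρ + div j = 0` -/
theorem cons {R : ℝ} {u : PZ → ℝ} {H : PZ → R3} (hu : ContDiff ℝ ∞ u) (hH : ContDiff ℝ ∞ H)
    (h0 : ∀ p : PZ, R ≤ ‖p.2.2‖ → u p = 0 ∧ H p = 0)
    (hv : ∀ p : PZ, fderiv ℝ u p (1, relVel p.2.2, 0) + ∑ i, fderiv ℝ H p (0, 0, ee i) i = 0) (q : PX) :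
    fderiv ℝ (rho u) q (1, 0) + ∑ i, fderiv ℝ (cur u) q (0, ee i) i = 0 := by
  have a1 := int_fderiv hu (fun p hp => (h0 p hp).1) q (1, 0)
  have a2 := fun i => int_fderiv (R := R) (ur_smooth hu) (fun p hp => by simp [(h0 p hp).1]) q (0, ee i)
  have c1 : ∀ e : PZ, Continuous fun p => fderiv ℝ u p e := fun e => (hu.continuous_fderiv (by simp)).clm_apply continuous_const
  have c2 : ∀ e : PZ, Continuous fun p => fderiv ℝ H p e := fun e => (hH.continuous_fderiv (by simp)).clm_apply continuous_const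
  have b2 : ∀ (i : Fin 3) (p : PZ), fderiv ℝ (fun p : PZ => u p • relVel p.2.2) p (0, ee i, 0) =
      fderiv ℝ u p (0, ee i, 0) • relVel p.2.2 := fun i p => by
    have h1 := (hu.differentiable (by simp) p).hasFDerivAt
    have h2 := ((relVel_smooth.differentiable (by simp) p.2.2).hasFDerivAt).comp (f := fun p : PZ => p.2.2) p
      (hasFDerivAt_snd (𝕜 := ℝ) (p := p)).snd
    have h3 : HasFDerivAt (fun p : PZ => u p • relVel p.2.2) _ p := h1.smul h2
    rw [h3.fderiv]; simp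
  have c3 : ∀ i : Fin 3, Continuous fun p : PZ => fderiv ℝ u p (0, ee i, 0) • relVel p.2.2 := fun i =>
    (c1 _).smul (relVel_smooth.continuous.comp continuous_snd.snd)
  have a3 : ∀ i : Fin 3, fderiv ℝ (cur u) q (0, ee i) i =
      ∫ v in Metric.closedBall (0 : R3) R, fderiv ℝ u (q.1, q.2, v) (0, ee i, 0) * relVel v i := fun i => by
    have := a2 i
    simp only [b2] at this
    have e : fderiv ℝ (cur u) q (0, ee i) = _ := this
    rw [e]
    exact ((EuclideanSpace.proj i : R3 →L[ℝ] ℝ).integral_comp_comm (int_on (c3 i) R q)).symm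
  have a4 : ∀ i : Fin 3, ∫ v in Metric.closedBall (0 : R3) R, fderiv ℝ H (q.1, q.2, v) (0, 0, ee i) i = 0 := fun i => by
    have hG : ContDiff ℝ 1 fun v : R3 => H (q.1, q.2, v) i :=
      (EuclideanSpace.proj i : R3 →L[ℝ] ℝ).contDiff.comp ((hH.of_le (by simp)).comp (by fun_prop))
    have hc : HasCompactSupport fun v : R3 => H (q.1, q.2, v) i :=
      HasCompactSupport.intro (isCompact_closedBall (0 : R3) R) fun v hv => by
        rw [(h0 (q.1, q.2, v) (by simpa using (not_le.1 (by simpa using hv)).le)).2]; rfl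
    have e : ∀ v : R3, fderiv ℝ (fun v : R3 => H (q.1, q.2, v) i) v (ee i) = fderiv ℝ H (q.1, q.2, v) (0, 0, ee i) i := fun v => by
      have h1 := (hasFDerivAt_const (𝕜 := ℝ) q.1 v).prodMk ((hasFDerivAt_const (𝕜 := ℝ) q.2 v).prodMk (hasFDerivAt_id v))
      have h2 := (EuclideanSpace.proj i : R3 →L[ℝ] ℝ).hasFDerivAt.comp v
        ((hH.differentiable (by simp) (q.1, q.2, v)).hasFDerivAt.comp v h1)
      have h3 : HasFDerivAt (fun v : R3 => H (q.1, q.2, v) i) _ v := h2
      rw [h3.fderiv]; rfl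
    have := U.int_fderiv_zero volume hG hc (ee i)
    simp only [e] at this
    refine Eq.trans ?_ this
    refine setIntegral_eq_integral_of_forall_compl_eq_zero fun v hv => ?_
    have e2 : H =ᶠ[nhds ((q.1, q.2, v) : PZ)] fun _ => 0 := by
      have : ∀ᶠ w : PZ in nhds (q.1, q.2, v), R < ‖w.2.2‖ :=
        (isOpen_lt continuous_const (by fun_prop)).mem_nhds (by simpa using hv)
      exact this.mono fun w hw => (h0 w hw.le).2
    simp [e2.fderiv_eq]
  have i1 : ∀ i : Fin 3, Integrable (fun v => fderiv ℝ u (q.1, q.2, v) (0, ee i, 0) * relVel v i)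
      (volume.restrict (Metric.closedBall (0 : R3) R)) := fun i =>
    int_on (u := fun p : PZ => fderiv ℝ u p (0, ee i, 0) * relVel p.2.2 i)
      ((EuclideanSpace.proj i : R3 →L[ℝ] ℝ).continuous.comp (c3 i)) R q
  have i2 : ∀ i : Fin 3, Integrable (fun v => fderiv ℝ H (q.1, q.2, v) (0, 0, ee i) i)
      (volume.restrict (Metric.closedBall (0 : R3) R)) := fun i =>
    int_on (u := fun p : PZ => fderiv ℝ H p (0, 0, ee i) i) ((EuclideanSpace.proj i : R3 →L[ℝ] ℝ).continuous.comp (c2 _)) R q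
  have e : fderiv ℝ (rho u) q (1, 0) = _ := a1
  rw [e]
  simp only [a3]
  rw [← integral_finsetSum _ fun i _ => i1 i, ← integral_add (int_on (c1 _) R q) (integrable_finsetSum _ fun i _ => i1 i)]
  have a5 : ∫ v in Metric.closedBall (0 : R3) R, -∑ i, fderiv ℝ H (q.1, q.2, v) (0, 0, ee i) i = 0 := by
    rw [integral_neg, integral_finsetSum _ fun i _ => i2 i]; simp [a4]
  refine Eq.trans ?_ a5
  refine integral_congr_ae (Filter.Eventually.of_forall fun v => ?_)
  have h := hv (q.1, q.2, v)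
  have e3 : ((1, relVel v, 0) : PZ) = (1, 0, 0) + ∑ i, relVel v i • ((0, ee i, 0) : PZ) := by
    have : ∑ i, relVel v i • ((0, ee i, 0) : PZ) = (0, ∑ i, relVel v i • ee i, 0) := by
      simp [Fin.sum_univ_three]
    rw [this, sum_ee]; simp
  simp only at h ⊢
  rw [e3, map_add, map_sum] at h
  simp only [map_smul, smul_eq_mul] at h
  have e4 : ∑ i, fderiv ℝ u (q.1, q.2, v) (0, ee i, 0) * relVel v i = ∑ i, relVel v i * fderiv ℝ u (q.1, q.2, v) (0, ee i, 0) :=
    Finset.sum_congr rfl fun i _ => mul_comm _ _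
  rw [e4]
  linarith

end Crest.Agent.R106.TR
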