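import Crest.Agent.R106.Iface
import Crest.Agent.R106.HR.Defs
import Crest.Agent.R106.Basic

/-! Row 106, block TR (owner helper96): the cut-off force. -/

set_option autoImplicit false

noncomputable section

namespace Crest.Agent.R106.TR

open MeasureTheory Set Crest.AnalysisR.VecCalc3 Crest.AnalysisR.PDE.RVM Crest.Agent.R106.HR
open scoped ContDiff

theorem relVel_smooth : ContDiff ℝ ∞ relVel := by
  have h1 : ContDiff ℝ ∞ fun v : R3 => 1 + ‖v‖ ^ 2 := contDiff_const.add (contDiff_norm_sq ℝ)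
  have h2 : ∀ v : R3, 1 + ‖v‖ ^ 2 ≠ 0 := fun v => by positivity
  exact ((h1.sqrt h2).inv fun v => (Real.sqrt_pos.2 (by positivity)).ne').smul contDiff_id

theorem norm_relVel_le (v : R3) : ‖relVel v‖ ≤ 1 := by
  have h0 : 0 < Real.sqrt (1 + ‖v‖ ^ 2) := Real.sqrt_pos.2 (by positivity)
  rw [relVel, norm_smul, Real.norm_eq_abs, abs_of_pos (inv_pos.2 h0), inv_mul_le_iff₀ h0, mul_one]
  exact Real.le_sqrt_of_sq_le (by linarith)

theorem fderiv_relVel_bdd : ∃ C : ℝ, ∀ v, ‖fderiv ℝ relVel v‖ ≤ C := by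
  refine ⟨2, fun v => ?_⟩
  have hp : 0 < 1 + ‖v‖ ^ 2 := by positivity
  set s := Real.sqrt (1 + ‖v‖ ^ 2) with hs
  have h0 : 0 < s := Real.sqrt_pos.2 hp
  have hs1 : 1 ≤ s := Real.le_sqrt_of_sq_le (by nlinarith [sq_nonneg ‖v‖])
  have hsv : ‖v‖ ≤ s := Real.le_sqrt_of_sq_le (by linarith)
  have h1 : HasFDerivAt (fun w : R3 => 1 + ‖w‖ ^ 2) (2 • innerSL ℝ v) v :=
    (hasStrictFDerivAt_norm_sq v).hasFDerivAt.const_add 1
  have h2 := (h1.sqrt hp.ne')
  have h3 := (hasFDerivAt_inv (𝕜 := ℝ) h0.ne').comp v h2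
  have h4 := h3.smul (hasFDerivAt_id v)
  have h5 : fderiv ℝ relVel v = _ := h4.fderiv
  rw [h5]
  refine ContinuousLinearMap.opNorm_le_bound _ (by norm_num) fun w => ?_
  have hin : |inner ℝ v w| ≤ ‖v‖ * ‖w‖ := abs_real_inner_le_norm v w
  simp only [add_apply, smul_apply, ContinuousLinearMap.id_apply,
    ContinuousLinearMap.smulRight_apply, ContinuousLinearMap.comp_apply, Function.comp_apply, id,
    innerSL_apply_apply, smul_eq_mul, ← hs, nsmul_eq_mul]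
  refine (norm_add_le _ _).trans ?_
  rw [norm_smul, norm_smul, Real.norm_eq_abs, Real.norm_eq_abs, abs_of_pos (inv_pos.2 h0)]
  have e1 : s⁻¹ * ‖w‖ ≤ ‖w‖ := mul_le_of_le_one_left (norm_nonneg _) (inv_le_one_of_one_le₀ hs1)
  have e2 : (ContinuousLinearMap.toSpanSingleton ℝ (-(s ^ 2)⁻¹)) (1 / (2 * s) * (((2 : ℕ) : ℝ) * inner ℝ v w)) =
      -(inner ℝ v w / s ^ 3) := by
    rw [ContinuousLinearMap.toSpanSingleton_apply, smul_eq_mul]
    push_cast
    field_simp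
  rw [e2, abs_neg, abs_div, abs_of_pos (pow_pos h0 3)]
  have e3 : |inner ℝ v w| / s ^ 3 * ‖v‖ ≤ ‖w‖ := by
    rw [div_mul_eq_mul_div, div_le_iff₀ (pow_pos h0 3)]
    have a1 : |inner ℝ v w| * ‖v‖ ≤ s * ‖w‖ * s :=
      mul_le_mul (hin.trans (mul_le_mul_of_nonneg_right hsv (norm_nonneg _))) hsv (norm_nonneg _) (by positivity)
    have a2 : s * ‖w‖ * s * 1 ≤ s * ‖w‖ * s * s := mul_le_mul_of_nonneg_left hs1 (by positivity)
    nlinarith
  linarith

/-- the force law built from three radial profiles -/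
def frcG (a c ψ : ℝ → ℝ) (v : R3) : R3 × R3 →L[ℝ] R3 :=
  a (‖v‖ ^ 2) • ContinuousLinearMap.fst ℝ R3 R3 -
    c (‖v‖ ^ 2) • ((innerSL ℝ v).comp (ContinuousLinearMap.fst ℝ R3 R3)).smulRight v +
    ψ (‖v‖ ^ 2) • (crossL v).comp (ContinuousLinearMap.snd ℝ R3 R3)

theorem frcG_apply (a c ψ : ℝ → ℝ) (v : R3) (k : R3 × R3) :
    frcG a c ψ v k = a (‖v‖ ^ 2) • k.1 - c (‖v‖ ^ 2) • (inner ℝ v k.1 : ℝ) • v + ψ (‖v‖ ^ 2) • cross3 v k.2 := by
  simp [frcG, crossL_apply]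

theorem frcG_smooth {a c ψ : ℝ → ℝ} (ha : ContDiff ℝ ∞ fun v : R3 => a (‖v‖ ^ 2))
    (hc : ContDiff ℝ ∞ fun v : R3 => c (‖v‖ ^ 2)) (hψ : ContDiff ℝ ∞ fun v : R3 => ψ (‖v‖ ^ 2)) :
    ContDiff ℝ ∞ (frcG a c ψ) := by
  rw [contDiff_clm_apply_iff]
  intro k
  simp only [frcG_apply]
  refine ((ha.smul contDiff_const).sub (hc.smul ((contDiff_id.inner ℝ contDiff_const).smul contDiff_id))).add
    (hψ.smul ?_)
  have : (fun v : R3 => cross3 v k.2) = fun v => crossL.flip k.2 v := by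
    funext v; simp [crossL_apply]
  rw [this]
  exact (crossL.flip k.2).contDiff

theorem frcG_div {a c ψ : ℝ → ℝ} (hs : ContDiff ℝ ∞ (frcG a c ψ)) (v : R3) (k : R3 × R3) {a' c' ψ' : ℝ}
    (ha : HasDerivAt a a' (‖v‖ ^ 2)) (hc : HasDerivAt c c' (‖v‖ ^ 2)) (hψ : HasDerivAt ψ ψ' (‖v‖ ^ 2))
    (h : a' = c' * ‖v‖ ^ 2 + 2 * c (‖v‖ ^ 2)) : ∑ i, fderiv ℝ (frcG a c ψ) v (ee i) k i = 0 := by
  have hp : ∀ j : Fin 3, HasFDerivAt (fun w : R3 => w j) (EuclideanSpace.proj j : R3 →L[ℝ] ℝ) v :=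
    fun j => (EuclideanSpace.proj j : R3 →L[ℝ] ℝ).hasFDerivAt
  have hn : HasFDerivAt (fun w : R3 => ‖w‖ ^ 2) (2 • innerSL ℝ v) v := (hasStrictFDerivAt_norm_sq v).hasFDerivAt
  have hA := HasDerivAt.comp_hasFDerivAt (h₂ := a) (f := fun w : R3 => ‖w‖ ^ 2) v ha hn
  have hC := HasDerivAt.comp_hasFDerivAt (h₂ := c) (f := fun w : R3 => ‖w‖ ^ 2) v hc hn
  have hΨ := HasDerivAt.comp_hasFDerivAt (h₂ := ψ) (f := fun w : R3 => ‖w‖ ^ 2) v hψ hn
  have hI : HasFDerivAt (fun w : R3 => (inner ℝ k.1 w : ℝ)) (innerSL ℝ k.1) v := (innerSL ℝ k.1).hasFDerivAt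
  have hG := (hs.differentiable (by simp) v).hasFDerivAt
  have key : ∀ i j l : Fin 3, i ≠ j → i ≠ l → (∀ w : R3, cross3 w k.2 i = w j * k.2 l - w l * k.2 j) →
      fderiv ℝ (frcG a c ψ) v (ee i) k i = 2 * a' * v i * k.1 i -
        (2 * c' * v i * (inner ℝ k.1 v * v i) + c (‖v‖ ^ 2) * (k.1 i * v i + inner ℝ k.1 v)) +
        2 * ψ' * v i * (v j * k.2 l - v l * k.2 j) := by
    intro i j l hj hl hx
    let pr : R3 →L[ℝ] ℝ := EuclideanSpace.proj i
    let ap : (R3 × R3 →L[ℝ] R3) →L[ℝ] R3 := ContinuousLinearMap.apply ℝ R3 k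
    have h1 : HasFDerivAt (fun w => frcG a c ψ w k i) ((pr.comp ap).comp (fderiv ℝ (frcG a c ψ) v)) v :=
      (pr.comp ap).hasFDerivAt.comp v hG
    have h2 := ((hA.mul_const (k.1 i)).sub (hC.mul (hI.mul (hp i)))).add
      (hΨ.mul (((hp j).mul_const (k.2 l)).sub ((hp l).mul_const (k.2 j))))
    have h3 := h2.congr_of_eventuallyEq (f₁ := fun w => frcG a c ψ w k i) (Filter.Eventually.of_forall fun w => by
      simp only [frcG_apply, PiLp.add_apply, PiLp.sub_apply, PiLp.smul_apply, smul_eq_mul, hx, Pi.add_apply,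
        Pi.sub_apply, Pi.mul_apply, Function.comp_apply, real_inner_comm])
    have h4 := congrArg (fun L : R3 →L[ℝ] ℝ => L (ee i)) (h1.unique h3)
    refine Eq.trans h4 ?_
    simp [ee, EuclideanSpace.inner_single_right, hj.symm, hl.symm]
    ring
  rw [Fin.sum_univ_three, key 0 1 2 (by decide) (by decide) (fun w => by simp [cross3]),
    key 1 2 0 (by decide) (by decide) (fun w => by simp [cross3]),
    key 2 0 1 (by decide) (by decide) (fun w => by simp [cross3]), h]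
  have e1 : (inner ℝ k.1 v : ℝ) = v 0 * k.1 0 + v 1 * k.1 1 + v 2 * k.1 2 := by
    simp [PiLp.inner_apply, Fin.sum_univ_three]
  have e2 : ‖v‖ ^ 2 = v 0 ^ 2 + v 1 ^ 2 + v 2 ^ 2 := by
    rw [EuclideanSpace.real_norm_sq_eq, Fin.sum_univ_three]
  generalize c (‖v‖ ^ 2) = c0
  rw [e1, e2]
  ring

/-- A `div_v`-free cut-off of the Lorentz force.  With `χ : ℝ → ℝ` smooth, `= 1` on `(-∞, P² + 1]`, `= 0` on `[P² + 2, ∞)`, `s = ‖v‖²`:
`G v (e, b) = χ s • e + χ' s • (s • e - ⟪v, e⟫ • v) + χ s • (v̂ × b)`   (the `e` part is `curl (χ s • ½ e × v)`). -/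
theorem exists_G (P : ℝ) : ∃ (G : R3 → (R3 × R3 →L[ℝ] R3)) (R : ℝ), IsCut P G ∧ (∀ v, R ≤ ‖v‖ → G v = 0) ∧
    ∀ v k, ∑ i, fderiv ℝ G v (ee i) k i = 0 := by
  set χ : ℝ → ℝ := fun s => Real.smoothTransition (P ^ 2 + 2 - s) with hχ
  have hχs : ContDiff ℝ ∞ χ := Real.smoothTransition.contDiff.comp (contDiff_const.sub contDiff_id)
  have hχ's : ContDiff ℝ ∞ (deriv χ) := hχs.deriv'
  have hn : ContDiff ℝ ∞ fun v : R3 => ‖v‖ ^ 2 := contDiff_norm_sq ℝ
  have h1 : ∀ s, s < P ^ 2 + 1 → χ s = 1 ∧ deriv χ s = 0 := by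
    intro s hs
    have : χ =ᶠ[nhds s] fun _ => 1 := by
      filter_upwards [Iio_mem_nhds hs] with t ht
      exact Real.smoothTransition.one_of_one_le (by simp only [mem_Iio] at ht; linarith)
    exact ⟨this.eq_of_nhds, by rw [this.deriv_eq]; simp⟩
  have h0 : ∀ s, P ^ 2 + 2 < s → χ s = 0 ∧ deriv χ s = 0 := by
    intro s hs
    have : χ =ᶠ[nhds s] fun _ => 0 := by
      filter_upwards [Ioi_mem_nhds hs] with t ht
      exact Real.smoothTransition.zero_of_nonpos (by simp only [mem_Ioi] at ht; linarith)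
    exact ⟨this.eq_of_nhds, by rw [this.deriv_eq]; simp⟩
  have hsm : ContDiff ℝ ∞ (frcG (fun s => χ s + s * deriv χ s) (deriv χ) fun s => χ s * (Real.sqrt (1 + s))⁻¹) := by
    refine frcG_smooth ((hχs.comp hn).add (hn.mul (hχ's.comp hn))) (hχ's.comp hn) ((hχs.comp hn).mul ?_)
    refine ContDiff.inv (ContDiff.sqrt (contDiff_const.add hn) fun v => ?_) fun v => ?_
    · positivity
    · exact (lt_of_lt_of_le one_pos (one_le_jb v)).ne'
  have hz : ∀ v : R3, |P| + 2 ≤ ‖v‖ →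
      frcG (fun s => χ s + s * deriv χ s) (deriv χ) (fun s => χ s * (Real.sqrt (1 + s))⁻¹) v = 0 := by
    intro v hv
    have hs : P ^ 2 + 2 < ‖v‖ ^ 2 := by
      have := abs_nonneg P
      rw [← sq_abs P]; nlinarith
    obtain ⟨e1, e2⟩ := h0 _ hs
    refine ContinuousLinearMap.ext fun k => ?_
    rw [frcG_apply]
    simp only [e1, e2]
    simp
  refine ⟨frcG (fun s => χ s + s * deriv χ s) (deriv χ) fun s => χ s * (Real.sqrt (1 + s))⁻¹, |P| + 2,
    ⟨hsm, ?_, ?_⟩, hz, ?_⟩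
  · refine HasCompactSupport.intro (isCompact_closedBall (0 : R3) (|P| + 2)) fun v hv => hz v ?_
    rw [mem_closedBall_zero_iff, not_le] at hv
    exact hv.le
  · intro v e b hv
    have hs : ‖v‖ ^ 2 < P ^ 2 + 1 := by
      have := norm_nonneg v
      nlinarith
    obtain ⟨e1, e2⟩ := h1 _ hs
    rw [frcG_apply]
    simp only [e1, e2]
    have : cross3 (relVel v) b = (Real.sqrt (1 + ‖v‖ ^ 2))⁻¹ • cross3 v b := by
      rw [relVel, ← crossL_apply, map_smul, ContinuousLinearMap.smul_apply, crossL_apply]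
    rw [this]
    simp
  · intro v k
    have d1 : ∀ s, HasDerivAt χ (deriv χ s) s := fun s => (hχs.differentiable (by simp) s).hasDerivAt
    have d2 : ∀ s, HasDerivAt (deriv χ) (deriv (deriv χ) s) s := fun s => (hχ's.differentiable (by simp) s).hasDerivAt
    have hp : (0 : ℝ) < 1 + ‖v‖ ^ 2 := by positivity
    have d3 : DifferentiableAt ℝ (fun s => χ s * (Real.sqrt (1 + s))⁻¹) (‖v‖ ^ 2) :=
      (d1 _).differentiableAt.mul
        ((((hasDerivAt_id (‖v‖ ^ 2)).const_add 1).sqrt hp.ne').differentiableAt.inv (Real.sqrt_pos.2 hp).ne')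
    refine frcG_div hsm v k ((d1 _).add ((hasDerivAt_id (‖v‖ ^ 2)).mul (d2 _))) (d2 _) d3.hasDerivAt ?_
    simp only [id]
    ring

/-- `A p = θ (t, x) • G v` with a bump function `θ` -/
theorem exists_force {G : R3 → (R3 × R3 →L[ℝ] R3)} {R : ℝ} (hG : ContDiff ℝ ∞ G) (h0 : ∀ v, R ≤ ‖v‖ → G v = 0)
    (hd : ∀ v k, ∑ i, fderiv ℝ G v (ee i) k i = 0) (S : ℝ) :
    ∃ A, Force R A ∧ ∀ p : PZ, |p.1| ≤ S → ‖p.2.1‖ ≤ S → A p = G p.2.2 := by
  let θ : ContDiffBump (0 : PX) := ⟨|S| + 1, |S| + 2, by positivity, by linarith⟩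
  have hθ : ContDiff ℝ ∞ θ := θ.contDiff
  have hv : ContDiff ℝ ∞ fun p : PZ => p.2.2 := contDiff_snd.comp contDiff_snd
  have hsm : ContDiff ℝ ∞ fun p : PZ => θ (px p) • G p.2.2 := (hθ.comp px.contDiff).smul (hG.comp hv)
  refine ⟨fun p => θ (px p) • G p.2.2, ⟨hsm, ?_, fun p hp => ContinuousLinearMap.ext fun k => by simp [h0 _ hp], ?_⟩, ?_⟩
  · refine HasCompactSupport.intro (isCompact_closedBall (0 : PZ) (max (|S| + 2) R)) fun p hp => ?_
    rw [mem_closedBall_zero_iff, not_le, max_lt_iff] at hp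
    by_cases h : R ≤ ‖p.2.2‖
    · exact ContinuousLinearMap.ext fun k => by simp [h0 _ h]
    · have e : ‖p‖ = max ‖px p‖ ‖p.2.2‖ := by
        simp only [Prod.norm_def, px_apply, max_assoc]
      have h2 : |S| + 2 ≤ ‖px p‖ := by
        rcases le_total ‖px p‖ ‖p.2.2‖ with h' | h'
        · rw [e, max_eq_right h'] at hp; exact absurd hp.2.le h
        · rw [e, max_eq_left h'] at hp; exact hp.1.le
      have : θ (px p) = 0 := θ.zero_of_le_dist (by simpa using h2)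
      rw [this]
      exact ContinuousLinearMap.ext fun k => by simp
  · intro p k
    have hV : HasFDerivAt (fun p : PZ => p.2.2)
        ((ContinuousLinearMap.snd ℝ R3 R3).comp (ContinuousLinearMap.snd ℝ ℝ Z6)) p :=
      ((ContinuousLinearMap.snd ℝ R3 R3).comp (ContinuousLinearMap.snd ℝ ℝ Z6)).hasFDerivAt
    have h1 := ((hθ.differentiable (by simp) (px p)).hasFDerivAt.comp p px.hasFDerivAt).smul
      ((hG.differentiable (by simp) p.2.2).hasFDerivAt.comp p hV)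
    have h2 : HasFDerivAt (fun p : PZ => θ (px p) • G p.2.2) _ p := h1
    rw [h2.fderiv]
    have e : ∀ i, px ((0, 0, ee i) : PZ) = 0 := fun i => rfl
    simp only [ContinuousLinearMap.add_apply, ContinuousLinearMap.smul_apply, ContinuousLinearMap.comp_apply,
      ContinuousLinearMap.smulRight_apply, e, map_zero, zero_smul, add_zero, ContinuousLinearMap.coe_snd',
      PiLp.smul_apply, smul_eq_mul, Function.comp_apply]
    rw [← Finset.mul_sum, hd, mul_zero]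
  · intro p h1 h2
    have : θ (px p) = 1 := by
      refine θ.one_of_mem_closedBall ?_
      rw [mem_closedBall_zero_iff, px_apply, Prod.norm_def]
      have := le_abs_self S
      exact max_le (by simp only [Real.norm_eq_abs, θ]; linarith) (by simp only [θ]; linarith)
    simp only [this, one_smul]

end Crest.Agent.R106.TR
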