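import Crest.Agent.R106.TR.Force

/-! Row 106, block TR: dictionary between the frames `HR` and `Iface`. -/

set_option autoImplicit false

noncomputable section

namespace Crest.Agent.R106.TR

open MeasureTheory Set Crest.AnalysisR.VecCalc3 Crest.AnalysisR.PDE.RVM Crest.Agent.R106.HR
open scoped ContDiff

theorem dat_of_adm {f₀ : R3 → R3 → ℝ} {E₀ B₀ : R3 → R3} (h : IsAdmissibleDatum f₀ E₀ B₀) (R₀ : ℝ) :
    ∃ R, R₀ ≤ R ∧ Dat R (Function.uncurry f₀) (fun x => (E₀ x, B₀ x)) := by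
  obtain ⟨-, hs, hc, hE, hB, hb, -, -, hdE, hdB⟩ := h
  obtain ⟨r, hr⟩ := hc.isCompact.isBounded.subset_ball 0
  have hd : ∀ (x w : R3), fderiv ℝ (fun x => (E₀ x, B₀ x)) x w = (fderiv ℝ E₀ x w, fderiv ℝ B₀ x w) := by
    intro x w
    rw [((hE.differentiable (by simp) x).hasFDerivAt.prodMk (hB.differentiable (by simp) x).hasFDerivAt).fderiv]
    rfl
  have hp : ∀ (F : R3 → R3), ContDiff ℝ ∞ F → ∀ (x : R3) (i : Fin 3),
      fderiv ℝ F x (ee i) i = pderiv (fun y => F y i) i x := by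
    intro F hF x i
    have := ((EuclideanSpace.proj (𝕜 := ℝ) i : R3 →L[ℝ] ℝ).hasFDerivAt.comp x
      (hF.differentiable (by simp) x).hasFDerivAt).fderiv
    unfold pderiv
    exact (congrArg (fun A : R3 →L[ℝ] ℝ => A (ee i)) this).symm
  refine ⟨max R₀ r, le_max_left _ _, hs, hE.prodMk hB, fun z hz => ?_, fun k => ?_, fun x => ?_, fun x => ?_⟩
  · by_contra hne
    have h1 := mem_ball_zero_iff.1 (hr (subset_tsupport _ hne))
    have h2 := norm_fst_le z
    have h3 := norm_snd_le z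
    have h4 := le_max_right R₀ r
    rcases hz with hz | hz <;> linarith
  · choose C hC using hb
    refine ⟨∑ j ∈ Finset.range (k + 1), |C j|, fun j hj x => ?_⟩
    have h1 : C j ≤ ∑ j ∈ Finset.range (k + 1), |C j| :=
      (le_abs_self _).trans (Finset.single_le_sum (f := fun j => |C j|) (fun _ _ => abs_nonneg _)
        (Finset.mem_range.2 (Nat.lt_succ_of_le hj)))
    rw [iteratedFDeriv_prodMk (hE.contDiffAt.of_le (by exact_mod_cast le_top)) (hB.contDiffAt.of_le (by exact_mod_cast le_top)) le_rfl,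
      ContinuousMultilinearMap.opNorm_prod]
    exact (max_le (hC j x).1 (hC j x).2).trans h1
  · simp only [hd, hp E₀ hE]
    exact hdE x
  · simp only [hd, hp B₀ hB]
    exact hdB x

theorem exists_ext_bd {Y : Type} [NormedAddCommGroup Y] [NormedSpace ℝ Y] {χ : ℝ → ℝ} (h : ContDiff ℝ ∞ χ)
    (hc : HasCompactSupport χ) (k : ℕ) : ∃ C : ℝ, ∀ z : ℝ × Y, ‖iteratedFDeriv ℝ k (fun p : ℝ × Y => χ p.1) z‖ ≤ C := by
  obtain ⟨C, hC⟩ := (h.continuous_iteratedFDeriv (m := k) (by exact_mod_cast le_top)).bounded_above_of_compact_support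
    (hc.iteratedFDeriv k)
  refine ⟨C, fun z => ?_⟩
  have e := (ContinuousLinearMap.fst ℝ ℝ Y).iteratedFDeriv_comp_right h z (i := k) (by exact_mod_cast le_top)
  have e' : (fun p : ℝ × Y => χ p.1) = χ ∘ (ContinuousLinearMap.fst ℝ ℝ Y) := rfl
  rw [e', e]
  refine (ContinuousMultilinearMap.norm_compContinuousLinearMap_le _ _).trans ?_
  have h1 : ∏ _i : Fin k, ‖ContinuousLinearMap.fst ℝ ℝ Y‖ ≤ 1 :=
    Finset.prod_le_one (fun _ _ => norm_nonneg _) (fun _ _ => ContinuousLinearMap.norm_fst_le ℝ ℝ Y)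
  exact (mul_le_of_le_one_right (norm_nonneg _) h1).trans (hC _)

/-- a function smooth on the slab `|t| ≤ T` with bounded derivatives, cut off in time -/
theorem exists_ext {Y F : Type} [NormedAddCommGroup Y] [NormedSpace ℝ Y] [NormedAddCommGroup F] [NormedSpace ℝ F]
    {T S : ℝ} (hS : S < T) : ∃ χ : ℝ → ℝ, (∀ t, |t| ≤ S → χ t = 1) ∧ ∀ u : ℝ × Y → F, ContDiffOn ℝ ∞ u (Icc (-T) T ×ˢ univ) →
      ContDiff ℝ ∞ (fun p : ℝ × Y => χ p.1 • u p) ∧
      ((∀ k, ∃ M, ∀ q : ℝ × Y, |q.1| < T → ‖iteratedFDeriv ℝ k u q‖ ≤ M) → Slab (fun p : ℝ × Y => χ p.1 • u p)) := by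
  by_cases hT : T ≤ 0
  · refine ⟨fun _ => 0, fun t ht => absurd ((abs_nonneg t).trans ht) (by linarith), fun u _ => ?_⟩
    have e : (fun p : ℝ × Y => (0 : ℝ) • u p) = fun _ => (0 : F) := by funext p; simp
    simp only [e]
    refine ⟨contDiff_const, fun _ => ⟨contDiff_const, fun k _ => ⟨0, fun z _ => ?_⟩⟩⟩
    rw [iteratedFDeriv_fun_zero]; simp
  push Not at hT
  have ha : max S 0 < T := max_lt hS hT
  have ha0 : 0 ≤ max S 0 := le_max_right _ _
  let b : ContDiffBump (0 : ℝ) := ⟨(2 * max S 0 + T) / 3, (max S 0 + 2 * T) / 3, by linarith, by linarith⟩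
  have hout : b.rOut < T := by show (max S 0 + 2 * T) / 3 < T; linarith
  have hb : ContDiff ℝ ∞ (b : ℝ → ℝ) := b.contDiff
  have hz : ∀ (u : ℝ × Y → F) (p : ℝ × Y), T ≤ |p.1| → (fun p : ℝ × Y => b p.1 • u p) =ᶠ[nhds p] fun _ => 0 := by
    intro u p hp
    have ho : IsOpen {q : ℝ × Y | b.rOut < |q.1|} := isOpen_lt continuous_const (continuous_fst.abs)
    filter_upwards [ho.mem_nhds (show b.rOut < |p.1| by linarith)] with q hq
    rw [b.zero_of_le_dist (by simpa [Real.dist_eq] using le_of_lt hq), zero_smul]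
  have hU : IsOpen {q : ℝ × Y | |q.1| < T} := isOpen_lt (continuous_fst.abs) continuous_const
  have hsub : {q : ℝ × Y | |q.1| < T} ⊆ Icc (-T) T ×ˢ univ := fun q hq =>
    ⟨⟨(abs_lt.1 hq).1.le, (abs_lt.1 hq).2.le⟩, mem_univ _⟩
  refine ⟨b, fun t ht => b.one_of_mem_closedBall ?_, fun u hu => ?_⟩
  · simp only [Metric.mem_closedBall, Real.dist_eq, sub_zero]
    show |t| ≤ (2 * max S 0 + T) / 3
    have := le_max_left S 0
    linarith
  have hb1 : ContDiff ℝ ∞ fun p : ℝ × Y => b p.1 := hb.comp contDiff_fst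
  have hcd : ContDiff ℝ ∞ fun p : ℝ × Y => b p.1 • u p := by
    rw [contDiff_iff_contDiffAt]
    intro p
    rcases lt_or_ge |p.1| T with hp | hp
    · exact hb1.contDiffAt.smul ((hu.mono hsub).contDiffAt (hU.mem_nhds hp))
    · exact contDiffAt_const.congr_of_eventuallyEq (hz u p hp)
  refine ⟨hcd, fun hM => ⟨hcd, fun k T' => ?_⟩⟩
  choose M hM using hM
  choose C hC using exists_ext_bd (Y := Y) hb b.hasCompactSupport
  refine ⟨max (∑ i ∈ Finset.range (k + 1), (k.choose i : ℝ) * C i * M (k - i)) 0, fun z _ => ?_⟩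
  rcases lt_or_ge |z.1| T with hp | hp
  · refine le_trans ?_ (le_max_left _ _)
    rw [← iteratedFDerivWithin_of_isOpen k hU hp]
    refine (norm_iteratedFDerivWithin_smul_le hb1.contDiffOn (hu.mono hsub) hU.uniqueDiffOn hp
      (n := k) (by exact_mod_cast le_top)).trans (Finset.sum_le_sum fun i _ => ?_)
    rw [iteratedFDerivWithin_of_isOpen i hU hp, iteratedFDerivWithin_of_isOpen (k - i) hU hp]
    have h0 : 0 ≤ C i := (norm_nonneg _).trans (hC i z)
    exact mul_le_mul (mul_le_mul_of_nonneg_left (hC i z) (Nat.cast_nonneg _)) (hM _ z hp) (norm_nonneg _)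
      (mul_nonneg (Nat.cast_nonneg _) h0)
  · refine le_trans ?_ (le_max_right _ _)
    rw [((hz u z hp).iteratedFDeriv ℝ k).eq_of_nhds, iteratedFDeriv_fun_zero]
    simp

theorem Slab.fst' {Y : Type} [NormedAddCommGroup Y] [NormedSpace ℝ Y] {K : ℝ × Y → K6} (h : Slab K) :
    Slab (fun p => (K p).1) ∧ Slab (fun p => (K p).2) := by
  have key : ∀ L : K6 →L[ℝ] R3, Slab (fun p => L (K p)) := fun L => by
    refine ⟨L.contDiff.comp h.1, fun k T => ?_⟩
    obtain ⟨C, hC⟩ := h.2 k T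
    refine ⟨‖L‖ * C, fun z hz => ?_⟩
    exact (L.norm_iteratedFDeriv_comp_left (h.1.contDiffAt (x := z)) (n := k) (by exact_mod_cast le_top)).trans
      (mul_le_mul_of_nonneg_left (hC z hz) (norm_nonneg _))
  exact ⟨key (ContinuousLinearMap.fst ℝ R3 R3), key (ContinuousLinearMap.snd ℝ R3 R3)⟩

theorem maxwellAt_of_MxL {f : PZ → ℝ} {K : PX → K6} {t : ℝ} {x : R3} (hK : DifferentiableAt ℝ K (t, x))
    (h : MxL (fderiv ℝ K (t, x)) (rho f (t, x)) (cur f (t, x))) :
    MaxwellAt (cur3 f) (cur2 fun p => (K p).1) (cur2 fun p => (K p).2) t x := by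
  set L := fderiv ℝ K (t, x) with hL
  have hK' : HasFDerivAt K L (t, x) := hK.hasFDerivAt
  have ht : HasDerivAt (fun s => K (s, x)) (L (1, 0)) t :=
    hK'.comp_hasDerivAt (f := fun s : ℝ => (s, x)) t ((hasDerivAt_id t).prodMk (hasDerivAt_const t x))
  have hx : HasFDerivAt (fun y => K (t, y)) (L.comp (ContinuousLinearMap.inr ℝ ℝ R3)) x :=
    hK'.comp x (hasFDerivAt_prodMk_right t x)
  have t1 : ∀ i, deriv (fun s => (K (s, x)).1 i) t = (L (1, 0)).1 i := fun i =>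
    (((EuclideanSpace.proj (𝕜 := ℝ) i : R3 →L[ℝ] ℝ).comp (ContinuousLinearMap.fst ℝ R3 R3)).hasFDerivAt.comp_hasDerivAt
      t ht).deriv
  have t2 : ∀ i, deriv (fun s => (K (s, x)).2 i) t = (L (1, 0)).2 i := fun i =>
    (((EuclideanSpace.proj (𝕜 := ℝ) i : R3 →L[ℝ] ℝ).comp (ContinuousLinearMap.snd ℝ R3 R3)).hasFDerivAt.comp_hasDerivAt
      t ht).deriv
  have x1 : ∀ i j, pderiv (fun y => (K (t, y)).1 i) j x = (L (0, ee j)).1 i := fun i j =>
    congrArg (fun A : R3 →L[ℝ] ℝ => A (ee j))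
      (((EuclideanSpace.proj (𝕜 := ℝ) i : R3 →L[ℝ] ℝ).comp (ContinuousLinearMap.fst ℝ R3 R3)).hasFDerivAt.comp x hx).fderiv
  have x2 : ∀ i j, pderiv (fun y => (K (t, y)).2 i) j x = (L (0, ee j)).2 i := fun i j =>
    congrArg (fun A : R3 →L[ℝ] ℝ => A (ee j))
      (((EuclideanSpace.proj (𝕜 := ℝ) i : R3 →L[ℝ] ℝ).comp (ContinuousLinearMap.snd ℝ R3 R3)).hasFDerivAt.comp x hx).fderiv
  have hev := h.ev
  have hc : currentDensity (cur3 f) t x = cur f (t, x) := rfl
  have hr : chargeDensity (cur3 f) t x = rho f (t, x) := rfl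
  refine ⟨fun i => ?_, fun i => ?_, ?_, ?_⟩
  · show deriv (fun s => (K (s, x)).1 i) t - curl3 (fun y => (K (t, y)).2) x i = _
    rw [t1, hev, hc]
    fin_cases i <;> simp [curl3, x2, Fin.sum_univ_three, rot_apply, cross3, ee] <;> ring
  · show deriv (fun s => (K (s, x)).2 i) t + curl3 (fun y => (K (t, y)).1) x i = _
    rw [t2, hev]
    fin_cases i <;> simp [curl3, x1, Fin.sum_univ_three, rot_apply, cross3, ee] <;> ring
  · show div3 (fun y => (K (t, y)).1) x = _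
    rw [hr, ← h.dE]
    simp only [div3, x1]
  · show div3 (fun y => (K (t, y)).2) x = _
    rw [← h.dB]
    simp only [div3, x2]

end Crest.Agent.R106.TR
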