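import Crest.Agent.R106.HR.Defs
import Crest.Agent.R106.Wave.Maxwell

/-! Row 106, block TR: the Maxwell solver in the frame of `HR`. -/

set_option autoImplicit false

noncomputable section

namespace Crest.Agent.R106.TR

open MeasureTheory Set Crest.AnalysisR.VecCalc3 Crest.AnalysisR.PDE.RVM Crest.Agent.R106.HR
open scoped ContDiff

theorem exists_max {ρ : PX → ℝ} {j : PX → R3} {K₀ : R3 → K6} (hρ : ContDiff ℝ ∞ ρ) (hj : ContDiff ℝ ∞ j)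
    (hK : ContDiff ℝ ∞ K₀) (hc : ∀ q, fderiv ℝ ρ q (1, 0) + ∑ i, fderiv ℝ j q (0, ee i) i = 0)
    (hE : ∀ x, ∑ i, (fderiv ℝ K₀ x (ee i)).1 i = ρ (0, x)) (hB : ∀ x, ∑ i, (fderiv ℝ K₀ x (ee i)).2 i = 0) :
    ∃ K : PX → K6, ContDiff ℝ ∞ K ∧ (∀ x, K (0, x) = K₀ x) ∧ ∀ q, MxL (fderiv ℝ K q) (ρ q) (j q) := by
  have h1 : (1 : WithTop ℕ∞) ≤ ∞ := by simp
  have h2 : (2 : WithTop ℕ∞) ≤ ∞ := WithTop.coe_le_coe.2 (le_top : (2 : ℕ∞) ≤ ⊤)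
  exact ⟨Wave.mxK K₀ ρ j, Wave.smooth_mxK hK hρ hj,
    Wave.mxK_zero (hK.of_le h1) (hρ.of_le h1) (hj.of_le h1),
    fun q => Wave.mxL_mxK (hK.of_le h2) (hρ.of_le h2) (hj.of_le h2) isOpen_univ
      (fun _ _ => subset_univ _) (fun t _ x => hc (t, x)) hE hB (mem_univ _)⟩

end Crest.Agent.R106.TR
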